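import Mathlib

namespace Vale.Agent.P100

open Filter Topology Laplacian InnerProductSpace

/-- second derivative test, necessary condition, in one variable -/
lemma deriv2_nonneg_of_isLocalMin {g : ℝ → ℝ} {t0 : ℝ} (h : IsLocalMin g t0)
    (hc : ContinuousAt g t0) : 0 ≤ deriv (deriv g) t0 := by
  by_contra hneg
  push Not at hneg
  have hd : deriv g t0 = 0 := h.deriv_eq_zero
  have hmax := isLocalMax_of_deriv_deriv_neg hneg hd hc
  have heq : g =ᶠ[𝓝 t0] fun _ => g t0 := by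
    filter_upwards [h, hmax] with t h1 h2 using le_antisymm h2 h1
  have hd' : deriv g =ᶠ[𝓝 t0] fun _ => 0 := by
    have := heq.deriv
    simpa using this
  have : deriv (deriv g) t0 = 0 := by
    rw [hd'.deriv_eq]; simp
  linarith

variable {E : Type*} [NormedAddCommGroup E] [InnerProductSpace ℝ E]

/-- the second derivative along a line -/
lemma deriv2_line {w : E → ℝ} {x : E} (hw : ContDiffAt ℝ 2 w x) (e : E) :
    deriv (deriv (fun t : ℝ => w (x + t • e))) 0 = iteratedFDeriv ℝ 2 w x ![e, e] := by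
  have hline : ∀ t : ℝ, HasDerivAt (fun t : ℝ => x + t • e) e t := by
    intro t
    have := ((hasDerivAt_id t).smul_const e).const_add x
    simpa using this
  have hcont : Tendsto (fun t : ℝ => x + t • e) (𝓝 0) (𝓝 x) := by
    have := (hline 0).continuousAt.tendsto
    simpa using this
  have hev : ∀ᶠ y in 𝓝 x, DifferentiableAt ℝ w y := by
    have h1 : ∀ᶠ y in 𝓝 x, ContDiffAt ℝ 2 w y := hw.eventually (by simp)
    filter_upwards [h1] with y hy using hy.differentiableAt (by simp)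
  have h1 : deriv (fun t : ℝ => w (x + t • e)) =ᶠ[𝓝 0] fun t => fderiv ℝ w (x + t • e) e := by
    filter_upwards [hcont.eventually hev] with t ht
    exact (ht.hasFDerivAt.comp_hasDerivAt t (hline t)).deriv
  rw [h1.deriv_eq, iteratedFDeriv_two_apply]
  have h2 : DifferentiableAt ℝ (fderiv ℝ w) x :=
    (hw.fderiv_right (m := 1) (by norm_num)).differentiableAt (by simp)
  have h3 : HasDerivAt (fun t : ℝ => fderiv ℝ w (x + t • e)) (fderiv ℝ (fderiv ℝ w) x e) 0 := by
    have h2' : HasFDerivAt (fderiv ℝ w) (fderiv ℝ (fderiv ℝ w) x) (x + (0 : ℝ) • e) := by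
      simpa using h2.hasFDerivAt
    exact h2'.comp_hasDerivAt 0 (hline 0)
  have h4 := h3.clm_apply (hasDerivAt_const (0 : ℝ) e)
  simpa using h4.deriv

variable [FiniteDimensional ℝ E]

/-- at an interior local minimum of a `C^2` function the Laplacian is nonnegative -/
lemma laplacian_nonneg_of_isLocalMin {w : E → ℝ} {x : E} (hw : ContDiffAt ℝ 2 w x)
    (hmin : IsLocalMin w x) : 0 ≤ Δ w x := by
  rw [laplacian_eq_iteratedFDeriv_stdOrthonormalBasis]
  apply Finset.sum_nonneg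
  intro i _
  set e := stdOrthonormalBasis ℝ E i
  rw [← deriv2_line hw e]
  have hcont : ContinuousAt (fun t : ℝ => x + t • e) 0 := by fun_prop
  apply deriv2_nonneg_of_isLocalMin
  · have h0 : x + (0 : ℝ) • e = x := by simp
    have hmin' : IsLocalMin w (x + (0 : ℝ) • e) := by rwa [h0]
    exact IsLocalMin.comp_continuous (g := fun t : ℝ => x + t • e) (b := (0 : ℝ)) hmin' hcont
  · have h0 : x + (0 : ℝ) • e = x := by simp
    have : ContinuousAt w (x + (0 : ℝ) • e) := by rw [h0]; exact hw.continuousAt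
    exact ContinuousAt.comp (f := fun t : ℝ => x + t • e) this hcont

/-- weak minimum principle for strictly superharmonic functions -/
lemma min_principle {K U : Set E} (hK : IsCompact K) (hKne : K.Nonempty) (hU : IsOpen U)
    (hUK : U ⊆ K) {w : E → ℝ} (hc : ContinuousOn w K) (h2 : ∀ x ∈ U, ContDiffAt ℝ 2 w x)
    (hΔ : ∀ x ∈ U, Δ w x < 0) : ∃ x0 ∈ K \ U, ∀ x ∈ K, w x0 ≤ w x := by
  obtain ⟨x0, hx0, hmin⟩ := hK.exists_isMinOn hKne hc
  refine ⟨x0, ⟨hx0, ?_⟩, fun x hx => hmin hx⟩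
  intro hx0U
  have hloc : IsLocalMin w x0 := by
    filter_upwards [hU.mem_nhds hx0U] with y hy using hmin (hUK hy)
  have := laplacian_nonneg_of_isLocalMin (h2 x0 hx0U) hloc
  linarith [hΔ x0 hx0U]

/-- comparison on a closed annulus -/
lemma annulus_comparison {ρ R : ℝ} {w : E → ℝ} {c : ℝ}
    (hc : ContinuousOn w {x | ρ ≤ ‖x‖ ∧ ‖x‖ ≤ R})
    (h2 : ∀ x, ρ < ‖x‖ → ‖x‖ < R → ContDiffAt ℝ 2 w x)
    (hΔ : ∀ x, ρ < ‖x‖ → ‖x‖ < R → Δ w x < 0)
    (hρ : ∀ x, ‖x‖ = ρ → c ≤ w x) (hR : ∀ x, ‖x‖ = R → c ≤ w x) :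
    ∀ x, ρ ≤ ‖x‖ → ‖x‖ ≤ R → c ≤ w x := by
  intro x hx1 hx2
  have hK : IsCompact {x : E | ρ ≤ ‖x‖ ∧ ‖x‖ ≤ R} := by
    have hcl : IsClosed {x : E | ρ ≤ ‖x‖ ∧ ‖x‖ ≤ R} :=
      (isClosed_le continuous_const continuous_norm).inter
        (isClosed_le continuous_norm continuous_const)
    refine (isCompact_closedBall (0 : E) R).of_isClosed_subset hcl ?_
    intro y hy
    simpa using hy.2
  have hU : IsOpen {x : E | ρ < ‖x‖ ∧ ‖x‖ < R} :=
    (isOpen_lt continuous_const continuous_norm).inter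
      (isOpen_lt continuous_norm continuous_const)
  obtain ⟨x0, ⟨hx0K, hx0U⟩, hmin⟩ := min_principle hK ⟨x, hx1, hx2⟩ hU
    (fun y hy => ⟨hy.1.le, hy.2.le⟩) hc (fun y hy => h2 y hy.1 hy.2) (fun y hy => hΔ y hy.1 hy.2)
  have hb : c ≤ w x0 := by
    by_cases h : ‖x0‖ = ρ
    · exact hρ x0 h
    · by_cases h' : ‖x0‖ = R
      · exact hR x0 h'
      · exact absurd ⟨lt_of_le_of_ne hx0K.1 (Ne.symm h), lt_of_le_of_ne hx0K.2 h'⟩ hx0U
  exact hb.trans (hmin x ⟨hx1, hx2⟩)

end Vale.Agent.P100
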