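import Vale.Agent.P100.Singular
import Vale.Agent.P100.Defs

namespace Vale.Agent.P100

open Filter Topology Laplacian InnerProductSpace

lemma IsPositiveEntireSolution.symm {n : ℕ} {p q A B : ℝ} {u v : EuclideanSpace ℝ (Fin n) → ℝ}
    (h : IsPositiveEntireSolution n p q A B u v) : IsPositiveEntireSolution n q p B A v u :=
  ⟨h.cont_v, h.cont_u, h.smooth_v, h.smooth_u, h.pos_v, h.pos_u, h.eq_v, h.eq_u⟩

lemma IsPositiveEntireSolution.contDiffAt_u {n : ℕ} {p q A B : ℝ}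
    {u v : EuclideanSpace ℝ (Fin n) → ℝ} (h : IsPositiveEntireSolution n p q A B u v)
    {x : EuclideanSpace ℝ (Fin n)} (hx : x ≠ 0) : ContDiffAt ℝ 2 u x :=
  h.smooth_u.contDiffAt (isOpen_compl_singleton.mem_nhds hx)

lemma IsPositiveEntireSolution.laplacian_u_neg {n : ℕ} {p q A B : ℝ}
    {u v : EuclideanSpace ℝ (Fin n) → ℝ} (h : IsPositiveEntireSolution n p q A B u v)
    {x : EuclideanSpace ℝ (Fin n)} (hx : x ≠ 0) : Δ u x < 0 := by
  have h1 := h.eq_u x hx
  have h2 : 0 < ‖x‖ ^ A * (v x) ^ p :=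
    mul_pos (Real.rpow_pos_of_pos (norm_pos_iff.mpr hx) _) (Real.rpow_pos_of_pos (h.pos_v x) _)
  linarith

/-- no positive entire solutions in the plane -/
theorem no_solution_plane {p q A B : ℝ} {u v : EuclideanSpace ℝ (Fin 2) → ℝ}
    (h : IsPositiveEntireSolution 2 p q A B u v) : False :=
  no_pos_strict_superharmonic_plane (E := EuclideanSpace ℝ (Fin 2)) (by simp)
    (fun x _ => h.pos_u x) (fun _ hx => h.contDiffAt_u hx) (fun _ hx => h.laplacian_u_neg hx)

/-- no positive entire solutions when `A ≤ -2`, in dimension at least three -/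
theorem no_solution_singular {n : ℕ} (hn : 3 ≤ n) {p q A B : ℝ} (hA : A ≤ -2)
    {u v : EuclideanSpace ℝ (Fin n) → ℝ} (h : IsPositiveEntireSolution n p q A B u v) : False := by
  have hK : IsCompact (Metric.closedBall (0 : EuclideanSpace ℝ (Fin n)) 1) :=
    isCompact_closedBall 0 1
  have hKne : (Metric.closedBall (0 : EuclideanSpace ℝ (Fin n)) 1).Nonempty :=
    ⟨0, by simp⟩
  have hvp : Continuous fun x => (v x) ^ p :=
    h.cont_v.rpow_const (fun x => Or.inl (h.pos_v x).ne')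
  obtain ⟨x0, _, hx0⟩ := hK.exists_isMinOn hKne hvp.continuousOn
  obtain ⟨x1, _, hx1⟩ := hK.exists_isMaxOn hKne h.cont_u.continuousOn
  have hc0 : 0 < (v x0) ^ p := Real.rpow_pos_of_pos (h.pos_v x0) _
  refine no_bounded_super_singular (E := EuclideanSpace ℝ (Fin n)) (by simpa using hn)
    (u := u) (c0 := (v x0) ^ p) (M := u x1) hc0 (fun x _ _ => h.pos_u x) ?_
    (fun _ hx => h.contDiffAt_u hx) ?_
  · intro x _ hx
    exact hx1 (by simpa using hx)
  · intro x hx hx1'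
    have h1 := h.eq_u x hx
    have hxpos : 0 < ‖x‖ := norm_pos_iff.mpr hx
    have h2 : (v x0) ^ p ≤ (v x) ^ p := hx0 (by simpa using hx1')
    have h3 : ‖x‖ ^ (-2 : ℝ) ≤ ‖x‖ ^ A := Real.rpow_le_rpow_of_exponent_ge hxpos hx1' hA
    have h4 : ‖x‖ ^ (-2 : ℝ) = 1 / ‖x‖ ^ 2 := by
      rw [Real.rpow_neg hxpos.le, one_div]
      norm_cast
    have h5 : (1 / ‖x‖ ^ 2) * (v x0) ^ p ≤ ‖x‖ ^ A * (v x) ^ p := by
      rw [← h4]
      exact mul_le_mul h3 h2 hc0.le (Real.rpow_nonneg hxpos.le _)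
    have h6 : -(v x0) ^ p / ‖x‖ ^ 2 = -((1 / ‖x‖ ^ 2) * (v x0) ^ p) := by ring
    rw [h6]
    linarith

end Vale.Agent.P100
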