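import Vale.Agent.P100.Radial

namespace Vale.Agent.P100

open Filter Topology Laplacian InnerProductSpace

variable {E : Type*} [NormedAddCommGroup E] [InnerProductSpace ℝ E] [FiniteDimensional ℝ E]

/-- The function `a + b * log ‖y‖^2`. -/
lemma contDiffAt_affine_log {x : E} (hx : x ≠ 0) (a b : ℝ) :
    ContDiffAt ℝ 2 (fun y : E => a + b * Real.log (‖y‖ ^ 2)) x :=
  contDiffAt_const.add (contDiffAt_const.mul (contDiffAt_log_sq hx))

lemma laplacian_sub_affine_log {u : E → ℝ} {x : E} (hx : x ≠ 0) (hu : ContDiffAt ℝ 2 u x)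
    (a b : ℝ) :
    Δ (fun y : E => u y - (a + b * Real.log (‖y‖ ^ 2))) x
      = Δ u x - b * (2 * ((Module.finrank ℝ E : ℝ) - 2) / ‖x‖ ^ 2) := by
  have h1 : ContDiffAt ℝ 2 (fun y : E => b * Real.log (‖y‖ ^ 2)) x :=
    contDiffAt_const.mul (contDiffAt_log_sq hx)
  have h2 : ContDiffAt ℝ 2 (fun _ : E => a) x := contDiffAt_const
  have e1 : (fun y : E => u y - (a + b * Real.log (‖y‖ ^ 2)))
      = u - ((fun _ : E => a) + (b • fun y : E => Real.log (‖y‖ ^ 2))) := by
    funext y; simp
  have h1' : ContDiffAt ℝ 2 (b • fun y : E => Real.log (‖y‖ ^ 2)) x := by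
    have : (b • fun y : E => Real.log (‖y‖ ^ 2)) = fun y : E => b * Real.log (‖y‖ ^ 2) := by
      funext y; simp
    rw [this]; exact h1
  have h3 : ContDiffAt ℝ 2 ((fun _ : E => a) + (b • fun y : E => Real.log (‖y‖ ^ 2))) x :=
    h2.add h1'
  rw [e1, hu.laplacian_sub h3, h2.laplacian_add h1',
    laplacian_smul b (contDiffAt_log_sq hx), laplacian_log_sq hx]
  simp

/-- A positive function on the punctured plane cannot be strictly superharmonic. -/
theorem no_pos_strict_superharmonic_plane (hdim : Module.finrank ℝ E = 2) {u : E → ℝ}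
    (hpos : ∀ x, x ≠ 0 → 0 < u x) (h2 : ∀ x, x ≠ 0 → ContDiffAt ℝ 2 u x)
    (hΔ : ∀ x, x ≠ 0 → Δ u x < 0) : False := by
  have hnt : Nontrivial E := Module.nontrivial_of_finrank_pos (R := ℝ) (by omega)
  -- minimiser on the unit sphere
  have hScomp : IsCompact (Metric.sphere (0 : E) 1) := isCompact_sphere 0 1
  have hSne : (Metric.sphere (0 : E) 1).Nonempty := NormedSpace.sphere_nonempty.mpr zero_le_one
  have hne_of_norm : ∀ {y : E} {r : ℝ}, 0 < r → r ≤ ‖y‖ → y ≠ 0 := by
    intro y r hr hy h0
    rw [h0, norm_zero] at hy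
    linarith
  have hScont : ContinuousOn u (Metric.sphere (0 : E) 1) := by
    intro y hy
    have : ‖y‖ = 1 := by simpa using hy
    exact (h2 y (hne_of_norm one_pos this.ge)).continuousAt.continuousWithinAt
  obtain ⟨x1, hx1, hmin⟩ := hScomp.exists_isMinOn hSne hScont
  have hx1n : ‖x1‖ = 1 := by simpa using hx1
  have hx10 : x1 ≠ 0 := hne_of_norm one_pos hx1n.ge
  set m := u x1 with hm
  have hmpos : 0 < m := hpos x1 hx10
  have hminS : ∀ y : E, ‖y‖ = 1 → m ≤ u y := fun y hy => hmin (by simpa using hy)
  have hlap0 : ∀ (x : E), x ≠ 0 → ∀ a b : ℝ,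
      Δ (fun y : E => u y - (a + b * Real.log (‖y‖ ^ 2))) x < 0 := by
    intro x hx a b
    rw [laplacian_sub_affine_log hx (h2 x hx), hdim]
    simpa using hΔ x hx
  -- outer estimate
  have houter : ∀ x : E, 1 ≤ ‖x‖ → ∀ l : ℝ, 0 < l → Real.log (‖x‖ ^ 2) ≤ l →
      m * (1 - Real.log (‖x‖ ^ 2) / l) ≤ u x := by
    intro x hx l hl hxl
    set R := Real.exp (l / 2) with hR
    have hRpos : 0 < R := Real.exp_pos _
    have hlogR : Real.log (R ^ 2) = l := by
      rw [hR, ← Real.exp_nat_mul]; simp; ring
    have hxR : ‖x‖ ≤ R := by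
      have h1 : ‖x‖ ^ 2 ≤ R ^ 2 := by
        rw [← hlogR] at hxl
        exact (Real.log_le_log_iff (by positivity) (by positivity)).mp hxl
      exact (pow_le_pow_iff_left₀ (norm_nonneg x) hRpos.le (by norm_num)).mp h1
    have := annulus_comparison (E := E) (ρ := 1) (R := R)
      (w := fun y : E => u y - (m + (-(m / l)) * Real.log (‖y‖ ^ 2))) (c := 0) ?_ ?_ ?_ ?_ ?_
      x hx hxR
    · have e : m * (1 - Real.log (‖x‖ ^ 2) / l) = m + (-(m / l)) * Real.log (‖x‖ ^ 2) := by
        field_simp
        ring
      rw [e]; linarith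
    · intro y hy
      have hy0 : y ≠ 0 := hne_of_norm one_pos hy.1
      exact ((h2 y hy0).sub (contDiffAt_affine_log hy0 _ _)).continuousAt.continuousWithinAt
    · intro y hy _
      have hy0 : y ≠ 0 := hne_of_norm one_pos hy.le
      exact (h2 y hy0).sub (contDiffAt_affine_log hy0 _ _)
    · intro y hy _
      exact hlap0 y (hne_of_norm one_pos hy.le) _ _
    · intro y hy
      have := hminS y hy
      simp only [hy]
      simp
      linarith
    · intro y hy
      have hy0 : y ≠ 0 := hne_of_norm hRpos hy.ge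
      have := hpos y hy0
      simp only [hy, hlogR]
      have e : m + -(m / l) * l = 0 := by field_simp; ring
      rw [e]; linarith
  -- inner estimate
  have hinner : ∀ x : E, x ≠ 0 → ‖x‖ ≤ 1 → ∀ l : ℝ, 0 < l → -l ≤ Real.log (‖x‖ ^ 2) →
      m * (1 + Real.log (‖x‖ ^ 2) / l) ≤ u x := by
    intro x hx0 hx l hl hxl
    set r := Real.exp (-l / 2) with hr
    have hrpos : 0 < r := Real.exp_pos _
    have hlogr : Real.log (r ^ 2) = -l := by
      rw [hr, ← Real.exp_nat_mul]; simp; ring
    have hxpos : 0 < ‖x‖ := norm_pos_iff.mpr hx0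
    have hxr : r ≤ ‖x‖ := by
      have h1 : r ^ 2 ≤ ‖x‖ ^ 2 := by
        rw [← hlogr] at hxl
        exact (Real.log_le_log_iff (by positivity) (by positivity)).mp hxl
      exact (pow_le_pow_iff_left₀ hrpos.le (norm_nonneg x) (by norm_num)).mp h1
    have := annulus_comparison (E := E) (ρ := r) (R := 1)
      (w := fun y : E => u y - (m + (m / l) * Real.log (‖y‖ ^ 2))) (c := 0) ?_ ?_ ?_ ?_ ?_
      x hxr hx
    · have e : m * (1 + Real.log (‖x‖ ^ 2) / l) = m + (m / l) * Real.log (‖x‖ ^ 2) := by
        field_simp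
      rw [e]; linarith
    · intro y hy
      have hy0 : y ≠ 0 := hne_of_norm hrpos hy.1
      exact ((h2 y hy0).sub (contDiffAt_affine_log hy0 _ _)).continuousAt.continuousWithinAt
    · intro y hy _
      have hy0 : y ≠ 0 := hne_of_norm hrpos hy.le
      exact (h2 y hy0).sub (contDiffAt_affine_log hy0 _ _)
    · intro y hy _
      exact hlap0 y (hne_of_norm hrpos hy.le) _ _
    · intro y hy
      have hy0 : y ≠ 0 := hne_of_norm hrpos hy.ge
      have := hpos y hy0
      simp only [hy, hlogr]
      have e : m + m / l * -l = 0 := by field_simp; ring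
      rw [e]; linarith
    · intro y hy
      have := hminS y hy
      simp only [hy]
      simp
      linarith
  -- hence `m` is a global minimum on the punctured plane
  have hglob : ∀ x : E, x ≠ 0 → m ≤ u x := by
    intro x hx0
    by_contra hlt
    push Not at hlt
    set δ := m - u x with hδ
    have hδpos : 0 < δ := by linarith
    have hxpos : 0 < ‖x‖ := norm_pos_iff.mpr hx0
    set L := Real.log (‖x‖ ^ 2) with hL
    rcases le_total 1 ‖x‖ with h1 | h1
    · have hL0 : 0 ≤ L := Real.log_nonneg (by nlinarith)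
      set l := L + m * L / δ + 1 with hl
      have hlpos : 0 < l := by positivity
      have h3 := houter x h1 l hlpos (by
        have : 0 ≤ m * L / δ := by positivity
        linarith)
      have h4 : m * L / l < δ := by
        rw [div_lt_iff₀ hlpos]
        have : δ * l = δ * L + m * L + δ := by
          rw [hl]; field_simp
        rw [this]
        nlinarith
      have h5 : m * (1 - L / l) = m - m * L / l := by ring
      rw [h5] at h3
      linarith
    · have hL0 : L ≤ 0 := Real.log_nonpos (by positivity) (by nlinarith)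
      set l := -L + m * (-L) / δ + 1 with hl
      have hlpos : 0 < l := by
        have : 0 ≤ m * (-L) / δ := by
          apply div_nonneg _ hδpos.le
          nlinarith
        linarith
      have h3 := hinner x hx0 h1 l hlpos (by
        have : 0 ≤ m * (-L) / δ := by
          apply div_nonneg _ hδpos.le
          nlinarith
        linarith)
      have h4 : m * (-L) / l < δ := by
        rw [div_lt_iff₀ hlpos]
        have : δ * l = δ * (-L) + m * (-L) + δ := by
          rw [hl]; field_simp
        rw [this]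
        nlinarith
      have h5 : m * (1 + L / l) = m - m * (-L) / l := by ring
      rw [h5] at h3
      linarith
  have hloc : IsLocalMin u x1 := by
    filter_upwards [isOpen_ne.mem_nhds hx10] with y hy using hglob y hy
  have := laplacian_nonneg_of_isLocalMin (h2 x1 hx10) hloc
  linarith [hΔ x1 hx10]

end Vale.Agent.P100
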