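import Vale.Agent.P100.Basic

namespace Vale.Agent.P100

open Filter Topology Laplacian InnerProductSpace

variable {E : Type*} [NormedAddCommGroup E] [InnerProductSpace ℝ E] [FiniteDimensional ℝ E]

/-- second derivative of a radial function along a unit direction -/
lemma deriv2_radial_line {G G1 : ℝ → ℝ} {g2 : ℝ} {x e : E} (he : ‖e‖ = 1)
    (h1 : ∀ᶠ s in 𝓝 (‖x‖ ^ 2), HasDerivAt G (G1 s) s) (h2 : HasDerivAt G1 g2 (‖x‖ ^ 2)) :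
    deriv (deriv (fun t : ℝ => G (‖x + t • e‖ ^ 2))) 0
      = 4 * (inner ℝ x e) ^ 2 * g2 + 2 * G1 (‖x‖ ^ 2) := by
  set c : ℝ := inner ℝ x e with hc
  have hs : ∀ t : ℝ, ‖x + t • e‖ ^ 2 = ‖x‖ ^ 2 + 2 * t * c + t ^ 2 := by
    intro t
    rw [norm_add_sq_real, inner_smul_right, norm_smul, he, mul_one, Real.norm_eq_abs, sq_abs]
    ring
  have hfun : (fun t : ℝ => G (‖x + t • e‖ ^ 2)) = fun t : ℝ => G (‖x‖ ^ 2 + 2 * t * c + t ^ 2) := by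
    funext t; rw [hs]
  rw [hfun]
  have hsd : ∀ t : ℝ, HasDerivAt (fun t : ℝ => ‖x‖ ^ 2 + 2 * t * c + t ^ 2) (2 * c + 2 * t) t := by
    intro t
    have h := (((hasDerivAt_id' t).const_mul 2).mul_const c).const_add (‖x‖ ^ 2)
    have h' := h.fun_add ((hasDerivAt_id' t).fun_pow 2)
    have e : 2 * c + 2 * t = 2 * 1 * c + ((2 : ℕ) : ℝ) * t ^ (2 - 1) * 1 := by
      norm_num
    rw [e]
    exact h'
  have hs0 : (‖x‖ ^ 2 + 2 * (0 : ℝ) * c + (0 : ℝ) ^ 2) = ‖x‖ ^ 2 := by ring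
  have hcont : Tendsto (fun t : ℝ => ‖x‖ ^ 2 + 2 * t * c + t ^ 2) (𝓝 0) (𝓝 (‖x‖ ^ 2)) := by
    have := (hsd 0).continuousAt.tendsto
    rwa [hs0] at this
  have hd1 : deriv (fun t : ℝ => G (‖x‖ ^ 2 + 2 * t * c + t ^ 2))
      =ᶠ[𝓝 0] fun t => G1 (‖x‖ ^ 2 + 2 * t * c + t ^ 2) * (2 * c + 2 * t) := by
    filter_upwards [hcont.eventually h1] with t ht
    exact (ht.comp t (hsd t)).deriv
  rw [hd1.deriv_eq]
  have h2' : HasDerivAt G1 g2 (‖x‖ ^ 2 + 2 * (0 : ℝ) * c + (0 : ℝ) ^ 2) := by rwa [hs0]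
  have h3 : HasDerivAt (fun t : ℝ => G1 (‖x‖ ^ 2 + 2 * t * c + t ^ 2)) (g2 * (2 * c + 2 * 0)) 0 :=
    h2'.comp 0 (hsd 0)
  have h4 : HasDerivAt (fun t : ℝ => 2 * c + 2 * t) 2 0 := by
    have := ((hasDerivAt_id (0 : ℝ)).const_mul 2).const_add (2 * c)
    simpa using this
  have h5 := h3.fun_mul h4
  rw [h5.deriv, hs0]
  ring

/-- the Laplacian of a radial function `y ↦ G (‖y‖ ^ 2)` -/
lemma laplacian_radial {G G1 : ℝ → ℝ} {g2 : ℝ} {x : E} (hG : ContDiffAt ℝ 2 G (‖x‖ ^ 2))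
    (h1 : ∀ᶠ s in 𝓝 (‖x‖ ^ 2), HasDerivAt G (G1 s) s) (h2 : HasDerivAt G1 g2 (‖x‖ ^ 2)) :
    Δ (fun y : E => G (‖y‖ ^ 2)) x
      = 4 * ‖x‖ ^ 2 * g2 + 2 * (Module.finrank ℝ E) * G1 (‖x‖ ^ 2) := by
  have hF : ContDiffAt ℝ 2 (fun y : E => G (‖y‖ ^ 2)) x :=
    hG.comp x (contDiff_norm_sq ℝ).contDiffAt
  rw [laplacian_eq_iteratedFDeriv_stdOrthonormalBasis]
  have : ∀ i, iteratedFDeriv ℝ 2 (fun y : E => G (‖y‖ ^ 2)) x
      ![stdOrthonormalBasis ℝ E i, stdOrthonormalBasis ℝ E i]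
      = 4 * (inner ℝ x (stdOrthonormalBasis ℝ E i)) ^ 2 * g2 + 2 * G1 (‖x‖ ^ 2) := by
    intro i
    rw [← deriv2_line hF]
    exact deriv2_radial_line ((stdOrthonormalBasis ℝ E).orthonormal.1 i) h1 h2
  simp only [this]
  rw [Finset.sum_add_distrib, ← Finset.sum_mul, ← Finset.mul_sum,
    (stdOrthonormalBasis ℝ E).sum_sq_inner_left x]
  simp
  ring

lemma contDiffAt_radial {G : ℝ → ℝ} {x : E} (hG : ContDiffAt ℝ 2 G (‖x‖ ^ 2)) :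
    ContDiffAt ℝ 2 (fun y : E => G (‖y‖ ^ 2)) x :=
  hG.comp x (contDiff_norm_sq ℝ).contDiffAt

/-- `Δ (log ‖·‖ ^ 2) = 2 (n - 2) / ‖x‖ ^ 2` -/
lemma laplacian_log_sq {x : E} (hx : x ≠ 0) :
    Δ (fun y : E => Real.log (‖y‖ ^ 2)) x = 2 * ((Module.finrank ℝ E : ℝ) - 2) / ‖x‖ ^ 2 := by
  have hs : (0 : ℝ) < ‖x‖ ^ 2 := by positivity
  have h := laplacian_radial (E := E) (G := Real.log) (G1 := fun s => s⁻¹)
    (g2 := -((‖x‖ ^ 2) ^ 2)⁻¹) (x := x) (Real.contDiffAt_log.mpr hs.ne') ?_ ?_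
  · rw [h]
    field_simp
    ring
  · filter_upwards [isOpen_ne.mem_nhds hs.ne'] with s hs' using Real.hasDerivAt_log hs'
  · have := hasDerivAt_inv hs.ne'
    simpa using this

lemma contDiffAt_log_sq {x : E} (hx : x ≠ 0) :
    ContDiffAt ℝ 2 (fun y : E => Real.log (‖y‖ ^ 2)) x :=
  contDiffAt_radial (Real.contDiffAt_log.mpr (by positivity))

end Vale.Agent.P100
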