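import Vale.Agent.P100.Plane

namespace Vale.Agent.P100

open Filter Topology Laplacian InnerProductSpace

variable {E : Type*} [NormedAddCommGroup E] [InnerProductSpace ℝ E] [FiniteDimensional ℝ E]

lemma contDiffAt_inv_norm {x : E} (hx : x ≠ 0) :
    ContDiffAt ℝ 2 (fun y : E => (‖y‖ ^ 2) ^ (-(1 / 2) : ℝ)) x :=
  contDiffAt_radial (G := fun s : ℝ => s ^ (-(1 / 2) : ℝ))
    (Real.contDiffAt_rpow_const_of_ne (by positivity))

/-- `Δ (1 / ‖y‖) = (3 - n) / ‖x‖ ^ 3` -/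
lemma laplacian_inv_norm {x : E} (hx : x ≠ 0) :
    Δ (fun y : E => (‖y‖ ^ 2) ^ (-(1 / 2) : ℝ)) x
      = (3 - (Module.finrank ℝ E : ℝ)) * (‖x‖ ^ 2) ^ (-(3 / 2) : ℝ) := by
  have hs : (0 : ℝ) < ‖x‖ ^ 2 := by positivity
  have h := laplacian_radial (E := E) (G := fun s : ℝ => s ^ (-(1 / 2) : ℝ))
    (G1 := fun s => (-(1 / 2) : ℝ) * s ^ ((-(1 / 2) : ℝ) - 1))
    (g2 := (-(1 / 2) : ℝ) * (((-(1 / 2) : ℝ) - 1) * (‖x‖ ^ 2) ^ ((-(1 / 2) : ℝ) - 1 - 1))) (x := x)
    (Real.contDiffAt_rpow_const_of_ne hs.ne') ?_ ?_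
  · rw [h]
    have e1 : ((-(1 / 2) : ℝ) - 1 - 1) = (-(3 / 2) : ℝ) - 1 := by norm_num
    have e2 : ((-(1 / 2) : ℝ) - 1) = (-(3 / 2) : ℝ) := by norm_num
    rw [e1, e2, Real.rpow_sub_one hs.ne']
    field_simp
    ring
  · filter_upwards [isOpen_ne.mem_nhds hs.ne'] with s hs'
    exact Real.hasDerivAt_rpow_const (Or.inl hs')
  · exact (Real.hasDerivAt_rpow_const (Or.inl hs.ne')).const_mul _

lemma inv_norm_eq {r : ℝ} (hr : 0 < r) : (r ^ 2) ^ (-(1 / 2) : ℝ) = r⁻¹ := by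
  rw [Real.rpow_neg (by positivity), ← Real.sqrt_eq_rpow, Real.sqrt_sq hr.le]

/-- In dimension at least three, a positive bounded function on the punctured unit ball cannot
satisfy `-Δ u ≥ c / ‖x‖ ^ 2` with `c > 0`. -/
theorem no_bounded_super_singular (hdim : 3 ≤ Module.finrank ℝ E) {u : E → ℝ} {c0 M : ℝ}
    (hc0 : 0 < c0) (hpos : ∀ x, x ≠ 0 → ‖x‖ ≤ 1 → 0 < u x) (hM : ∀ x, x ≠ 0 → ‖x‖ ≤ 1 → u x ≤ M)
    (h2 : ∀ x, x ≠ 0 → ContDiffAt ℝ 2 u x)
    (hΔ : ∀ x, x ≠ 0 → ‖x‖ ≤ 1 → Δ u x ≤ -c0 / ‖x‖ ^ 2) : False := by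
  have hnt : Nontrivial E := Module.nontrivial_of_finrank_pos (R := ℝ) (by omega)
  have hne_of_norm : ∀ {y : E} {r : ℝ}, 0 < r → r ≤ ‖y‖ → y ≠ 0 := by
    intro y r hr hy h0
    rw [h0, norm_zero] at hy
    linarith
  set N : ℝ := (Module.finrank ℝ E : ℝ) with hN
  have hN3 : (3 : ℝ) ≤ N := by rw [hN]; exact_mod_cast hdim
  set a : ℝ := c0 / (4 * (N - 2)) with ha
  have hapos : 0 < a := by
    apply div_pos hc0
    linarith
  -- `M` is positive
  have hMpos : 0 < M := by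
    obtain ⟨y, hy⟩ := NormedSpace.sphere_nonempty (E := E) (x := 0) (r := 1) |>.mpr zero_le_one
    have hy1 : ‖y‖ = 1 := by simpa using hy
    have hy0 : y ≠ 0 := hne_of_norm one_pos hy1.ge
    exact (hpos y hy0 hy1.le).trans_le (hM y hy0 hy1.le)
  set l : ℝ := 8 + 6 * M / a + 1 with hl
  have hl8 : 8 ≤ l := by
    have : 0 ≤ 6 * M / a := by positivity
    linarith
  have hlpos : 0 < l := by linarith
  set ρ := Real.exp (-l / 2) with hρ
  have hρpos : 0 < ρ := Real.exp_pos _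
  have hρ1 : ρ ≤ 1 := by
    rw [hρ]; apply Real.exp_le_one_iff.mpr; linarith
  have hlogρ : Real.log (ρ ^ 2) = -l := by
    rw [hρ, ← Real.exp_nat_mul]; simp; ring
  set μ : ℝ := a * l * ρ with hμ
  have hμpos : 0 < μ := by positivity
  set w : E → ℝ := fun y => u y - (0 + (-a) * Real.log (‖y‖ ^ 2)) + μ * (‖y‖ ^ 2) ^ (-(1 / 2) : ℝ)
    with hw
  have hwC : ∀ y : E, y ≠ 0 → ContDiffAt ℝ 2 w y := by
    intro y hy
    exact ((h2 y hy).sub (contDiffAt_affine_log hy _ _)).add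
      (contDiffAt_const.mul (contDiffAt_inv_norm hy))
  have hwΔ : ∀ y : E, y ≠ 0 → ‖y‖ ≤ 1 → Δ w y < 0 := by
    intro y hy hy1
    have e1 : w = (fun y : E => u y - (0 + (-a) * Real.log (‖y‖ ^ 2)))
        + (μ • fun y : E => (‖y‖ ^ 2) ^ (-(1 / 2) : ℝ)) := by
      funext z; simp [hw]
    have hc1 : ContDiffAt ℝ 2 (fun y : E => u y - (0 + (-a) * Real.log (‖y‖ ^ 2))) y :=
      (h2 y hy).sub (contDiffAt_affine_log hy _ _)
    have hc2 : ContDiffAt ℝ 2 (μ • fun y : E => (‖y‖ ^ 2) ^ (-(1 / 2) : ℝ)) y := by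
      have : (μ • fun y : E => (‖y‖ ^ 2) ^ (-(1 / 2) : ℝ))
          = fun y : E => μ * (‖y‖ ^ 2) ^ (-(1 / 2) : ℝ) := by
        funext z; simp
      rw [this]
      exact contDiffAt_const.mul (contDiffAt_inv_norm hy)
    rw [e1, hc1.laplacian_add hc2, laplacian_sub_affine_log hy (h2 y hy),
      laplacian_smul μ (contDiffAt_inv_norm hy), laplacian_inv_norm hy]
    have hs : (0 : ℝ) < ‖y‖ ^ 2 := by positivity
    have h3 : μ • ((3 - N) * (‖y‖ ^ 2) ^ (-(3 / 2) : ℝ)) ≤ 0 := by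
      rw [smul_eq_mul]
      have : 0 ≤ (‖y‖ ^ 2) ^ (-(3 / 2) : ℝ) := Real.rpow_nonneg hs.le _
      have h4 : (3 - N) * (‖y‖ ^ 2) ^ (-(3 / 2) : ℝ) ≤ 0 :=
        mul_nonpos_of_nonpos_of_nonneg (by linarith) this
      exact mul_nonpos_of_nonneg_of_nonpos hμpos.le h4
    have h5 : -a * (2 * (N - 2) / ‖y‖ ^ 2) = -(c0 / 2) / ‖y‖ ^ 2 := by
      rw [ha]
      have : N - 2 ≠ 0 := by linarith
      field_simp
      ring
    have h6 := hΔ y hy hy1
    have h7 : -c0 / ‖y‖ ^ 2 + (c0 / 2) / ‖y‖ ^ 2 < 0 := by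
      rw [← add_div]
      apply div_neg_of_neg_of_pos _ hs
      linarith
    have h8 : -(c0 / 2) / ‖y‖ ^ 2 = -((c0 / 2) / ‖y‖ ^ 2) := by ring
    rw [h5, h8]
    linarith
  -- the point where we evaluate
  set r := Real.exp (-l / 4) with hr
  have hrpos : 0 < r := Real.exp_pos _
  obtain ⟨xs, hxs⟩ := NormedSpace.sphere_nonempty (E := E) (x := 0) (r := r) |>.mpr hrpos.le
  have hxsn : ‖xs‖ = r := by simpa using hxs
  have hρr : ρ ≤ r := by
    rw [hρ, hr]; apply Real.exp_le_exp.mpr; linarith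
  have hr1 : r ≤ 1 := by
    rw [hr]; apply Real.exp_le_one_iff.mpr; linarith
  have hcomp := annulus_comparison (E := E) (ρ := ρ) (R := 1) (w := w) (c := 0) ?_ ?_ ?_ ?_ ?_
    xs (by rw [hxsn]; exact hρr) (by rw [hxsn]; exact hr1)
  · -- contradiction
    have hxs0 : xs ≠ 0 := hne_of_norm hrpos hxsn.ge
    have hlogr : Real.log (r ^ 2) = -l / 2 := by
      rw [hr, ← Real.exp_nat_mul]; simp; ring
    have hρr2 : ρ = r * r := by
      rw [hρ, hr, ← Real.exp_add]; congr 1; ring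
    have hr3 : r ≤ 1 / 3 := by
      have h1 : 3 ≤ Real.exp (l / 4) := by
        have := Real.add_one_le_exp (l / 4)
        linarith
      have h2 : r = (Real.exp (l / 4))⁻¹ := by
        rw [hr, ← Real.exp_neg]; congr 1; ring
      rw [h2, one_div]
      exact inv_anti₀ (by norm_num) h1
    have hval : w xs = u xs - a * l / 2 + a * l * r := by
      simp only [hw, hxsn, hlogr, inv_norm_eq hrpos, hμ, hρr2]
      field_simp
      ring
    rw [hval] at hcomp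
    have hu := hM xs hxs0 (by rw [hxsn]; exact hr1)
    have h9 : a * l * r ≤ a * l * (1 / 3) := by
      apply mul_le_mul_of_nonneg_left hr3
      positivity
    have h10 : a * l = 9 * a + 6 * M := by
      rw [hl]; field_simp; ring
    nlinarith
  · intro y hy
    exact (hwC y (hne_of_norm hρpos hy.1)).continuousAt.continuousWithinAt
  · intro y hy _
    exact hwC y (hne_of_norm hρpos hy.le)
  · intro y hy hy1
    exact hwΔ y (hne_of_norm hρpos hy.le) hy1.le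
  · intro y hy
    have hy0 : y ≠ 0 := hne_of_norm hρpos hy.ge
    have := hpos y hy0 (by rw [hy]; exact hρ1)
    have hval : w y = u y := by
      simp only [hw, hy, hlogρ, inv_norm_eq hρpos, hμ]
      field_simp
      ring
    rw [hval]; exact this.le
  · intro y hy
    have hy0 : y ≠ 0 := hne_of_norm one_pos hy.ge
    have := hpos y hy0 hy.le
    have hval : w y = u y + μ := by
      simp only [hw, hy]
      simp
    rw [hval]; linarith

end Vale.Agent.P100
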